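import Mathlib

set_option autoImplicit false

namespace Vale.Agent.P181.FR

theorem numer {m p w a b N : ℕ} (hm : 3 ≤ m) (hp : 2 ≤ p) (hN : N = (2 * m + 1) * (2 * p - 1))
    (h1 : (N + 1) * w ^ p ≤ a) (h2 : a ≤ w ^ (2 * p - 1)) (hb : b + 1 ≤ a ^ 2) :
    (b + 1) ^ (m * a) * (N * w ^ (2 * p - 1) * a + 1) ^ (m * m + m) ≤ w ^ (N * w ^ (2 * p - 1)) := by
  obtain ⟨q, hq⟩ : ∃ q, q = 2 * p - 1 := ⟨_, rfl⟩
  rw [← hq] at hN h2 ⊢
  have hq3 : 3 ≤ q := by omega
  have hw0 : 0 < w := by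
    rcases Nat.eq_zero_or_pos w with h | h
    · subst h
      rw [Nat.zero_pow (by omega)] at h2
      have : a = 0 := by omega
      subst this
      simp at hb
    · exact h
  have hpow : w ^ q = w ^ p * w ^ (p - 1) := by
    rw [← pow_add]; congr 1; omega
  have hN1 : N + 1 ≤ w ^ (p - 1) := by
    have h3 : w ^ p * (N + 1) ≤ w ^ p * w ^ (p - 1) := by
      rw [← hpow, mul_comm]; exact h1.trans h2
    exact Nat.le_of_mul_le_mul_left h3 (Nat.pow_pos hw0)
  have hN21 : 21 ≤ N := by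
    rw [hN]
    calc 21 = 7 * 3 := by norm_num
      _ ≤ (2 * m + 1) * q := Nat.mul_le_mul (by omega) hq3
  have hw2 : 2 ≤ w := by
    rcases Nat.lt_or_ge w 2 with h | h
    · have hw1 : w = 1 := by omega
      rw [hw1, one_pow] at hN1
      omega
    · exact h
  have ha0 : 1 ≤ a := by
    rcases Nat.eq_zero_or_pos a with h | h
    · subst h; simp at hb
    · exact h
  -- first factor
  have hA : (b + 1) ^ (m * a) ≤ w ^ (2 * m * q * w ^ q) := by
    calc (b + 1) ^ (m * a) ≤ (a ^ 2) ^ (m * a) := Nat.pow_le_pow_left hb _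
      _ ≤ ((w ^ q) ^ 2) ^ (m * a) := Nat.pow_le_pow_left (Nat.pow_le_pow_left h2 _) _
      _ = w ^ (2 * m * q * a) := by
          rw [← pow_mul, ← pow_mul]; congr 1; ring
      _ ≤ w ^ (2 * m * q * w ^ q) :=
          Nat.pow_le_pow_right hw0 (Nat.mul_le_mul_left _ h2)
  -- second factor
  have hB0 : N * w ^ q * a + 1 ≤ w ^ (3 * q) := by
    have h3 : (N * w ^ q * a + 1) * w ^ p ≤ w ^ (3 * q) * w ^ p := by
      calc (N * w ^ q * a + 1) * w ^ p ≤ ((N + 1) * (w ^ q * a)) * w ^ p := by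
            refine Nat.mul_le_mul_right _ ?_
            have : 1 ≤ w ^ q * a := Nat.mul_pos (Nat.pow_pos hw0) ha0
            calc N * w ^ q * a + 1 ≤ N * w ^ q * a + w ^ q * a := by omega
              _ = (N + 1) * (w ^ q * a) := by ring
        _ = ((N + 1) * w ^ p) * (w ^ q * a) := by ring
        _ ≤ a * (w ^ q * a) := Nat.mul_le_mul_right _ h1
        _ ≤ w ^ q * (w ^ q * w ^ q) := Nat.mul_le_mul h2 (Nat.mul_le_mul_left _ h2)
        _ = w ^ (3 * q) := by rw [← pow_add, ← pow_add]; congr 1; ring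
        _ ≤ w ^ (3 * q) * w ^ p := Nat.le_mul_of_pos_right _ (Nat.pow_pos hw0)
    exact Nat.le_of_mul_le_mul_right h3 (Nat.pow_pos hw0)
  have hexp : 3 * q * (m * m + m) ≤ q * w ^ q := by
    have h4 : 3 * (m * m + m) ≤ w ^ q := by
      calc 3 * (m * m + m) ≤ (2 * m + 1) * (2 * m + 1) := by nlinarith
        _ ≤ (N + 1) * (N + 1) := by
            have : 2 * m + 1 ≤ N + 1 := by
              rw [hN]; nlinarith
            exact Nat.mul_le_mul this this
        _ ≤ w ^ (p - 1) * w ^ (p - 1) := Nat.mul_le_mul hN1 hN1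
        _ = w ^ (2 * (p - 1)) := by rw [← pow_add]; congr 1; ring
        _ ≤ w ^ q := Nat.pow_le_pow_right hw0 (by omega)
    calc 3 * q * (m * m + m) = q * (3 * (m * m + m)) := by ring
      _ ≤ q * w ^ q := Nat.mul_le_mul_left _ h4
  have hB : (N * w ^ q * a + 1) ^ (m * m + m) ≤ w ^ (q * w ^ q) := by
    calc (N * w ^ q * a + 1) ^ (m * m + m) ≤ (w ^ (3 * q)) ^ (m * m + m) :=
          Nat.pow_le_pow_left hB0 _
      _ = w ^ (3 * q * (m * m + m)) := by rw [← pow_mul]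
      _ ≤ w ^ (q * w ^ q) := Nat.pow_le_pow_right hw0 hexp
  calc (b + 1) ^ (m * a) * (N * w ^ q * a + 1) ^ (m * m + m)
      ≤ w ^ (2 * m * q * w ^ q) * w ^ (q * w ^ q) := Nat.mul_le_mul hA hB
    _ = w ^ (N * w ^ q) := by rw [← pow_add, hN]; congr 1; ring

end Vale.Agent.P181.FR
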