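import Vale.Agent.P181.R2.H207.KDefs

/-!
# P181, row K1: appending two tuples (helper764)
-/

set_option autoImplicit false

namespace Vale.Agent.P181.KT

open Finset

theorem k1 {m c b1 b2 : ℕ} (G : Finset (Fin m → ℕ)) (ν : Fin m → ℕ) (hG : ∀ v ∈ G, v ≤ ν) :
    ∑ v ∈ G, NN m c b1 v * NN m c b2 (ν - v) ≤ NN m c (b1 + b2) ν := by
  classical
  unfold NN
  simp only [← Finset.card_product]
  rw [← Finset.card_sigma]
  refine Finset.card_le_card_of_injOn (fun p => Fin.append p.2.1 p.2.2) ?_ ?_
  · rintro ⟨v, f, g⟩ h
    simp only [Finset.coe_sigma, Set.mem_sigma_iff, Finset.mem_coe, Finset.mem_product,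
      Finset.mem_filter, Fintype.mem_piFinset] at h
    obtain ⟨hv, ⟨hf, hf2⟩, hg, hg2⟩ := h
    simp only [Finset.mem_coe, Finset.mem_filter, Fintype.mem_piFinset]
    refine ⟨fun j => ?_, ?_⟩
    · refine Fin.addCases (fun i => ?_) (fun i => ?_) j
      · rw [Fin.append_left]
        exact hf i
      · rw [Fin.append_right]
        exact hg i
    · rw [Fin.sum_univ_add]
      simp only [Fin.append_left, Fin.append_right]
      rw [hf2, hg2]
      funext i
      have h9 : v i ≤ ν i := hG v hv i
      simp only [Pi.add_apply, Pi.sub_apply]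
      omega
  · rintro ⟨v, f, g⟩ h ⟨v', f', g'⟩ h' he
    simp only [Finset.coe_sigma, Set.mem_sigma_iff, Finset.mem_coe, Finset.mem_product,
      Finset.mem_filter, Fintype.mem_piFinset] at h h'
    have he' : Fin.append f g = Fin.append f' g' := he
    have hf : f = f' := by
      funext i
      have := congrFun he' (Fin.castAdd b2 i)
      rwa [Fin.append_left, Fin.append_left] at this
    have hg : g = g' := by
      funext i
      have := congrFun he' (Fin.natAdd b1 i)
      rwa [Fin.append_right, Fin.append_right] at this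
    have hv : v = v' := by rw [← h.2.1.2, ← h'.2.1.2, hf]
    subst hv hf hg
    rfl

end Vale.Agent.P181.KT
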