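import Mathlib

/-!
# P181, row K17: the numbers of Theorem K (helper764)
-/

set_option autoImplicit false

namespace Vale.Agent.P181.KT

open Filter Topology

namespace NK

theorem ev_log (s e : ℝ) (he : 0 < e) : ∀ᶠ x : ℝ in atTop, s * Real.log x ≤ e * x := by
  have h1 : (fun x : ℝ => s * Real.log x) =o[atTop] (fun x : ℝ => x) :=
    Real.isLittleO_log_id_atTop.const_mul_left s
  have h2 := h1.bound he
  filter_upwards [h2, eventually_ge_atTop (0 : ℝ)] with x h3 h4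
  rw [Real.norm_eq_abs, Real.norm_eq_abs, abs_of_nonneg h4] at h3
  exact (le_abs_self _).trans h3

/-- `bc + 1 ≤ a³` -/
theorem log_bc {a b c : ℝ} (ha : 3 ≤ a) (hb : b ≤ 2 * a) (hb0 : 0 ≤ b) (hc : c ≤ a) (hc0 : 0 ≤ c) :
    Real.log (b * c + 1) ≤ 3 * Real.log a := by
  have h1 : b * c ≤ 2 * a * a := mul_le_mul hb hc hc0 (by linarith)
  have h2 : 3 * (a * a) ≤ a * (a * a) := mul_le_mul_of_nonneg_right ha (by positivity)
  have h3 : 3 * 3 ≤ a * a := mul_le_mul ha ha (by norm_num) (by linarith)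
  have h4 : b * c + 1 ≤ a ^ 3 := by
    have : a ^ 3 = a * (a * a) := by ring
    rw [this]
    linarith
  have h5 : 0 < b * c + 1 := by positivity
  have h6 := Real.log_le_log h5 h4
  rw [Real.log_pow] at h6
  exact_mod_cast h6

/-- the last factor -/
theorem log_rhs {a b c T : ℝ} (ha : 3 ≤ a) (hb : b ≤ 2 * a) (hb0 : 0 < b) (hc : a ≤ 2 * c) :
    Real.log a - T - 4 ≤ Real.log (Real.exp (-T) * c ^ 2 / 4) - Real.log b := by
  have hc0 : 0 < c := by linarith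
  have ha0 : 0 < a := by linarith
  have h1 : Real.log a ≤ Real.log 2 + Real.log c := by
    rw [← Real.log_mul (by norm_num) hc0.ne']
    exact Real.log_le_log ha0 hc
  have h2 : Real.log b ≤ Real.log 2 + Real.log a := by
    rw [← Real.log_mul (by norm_num) ha0.ne']
    exact Real.log_le_log hb0 hb
  have h3 : Real.log (Real.exp (-T) * c ^ 2 / 4) = -T + 2 * Real.log c - 2 * Real.log 2 := by
    rw [Real.log_div (by positivity) (by norm_num), Real.log_mul (by positivity) (by positivity),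
      Real.log_exp, Real.log_pow]
    have : (4 : ℝ) = 2 ^ 2 := by norm_num
    rw [this, Real.log_pow]
    push_cast
    ring
  have h4 := Real.log_two_lt_d9
  rw [h3]
  linarith

/-- the combinatorial inequality -/
theorem comb {n G M a b : ℕ} {R S l : ℝ} (hR : 0 ≤ R) (hl : 1 ≤ l)
    (hS : S = 8 * ((n : ℝ) + 3) ^ 2 * R + 4 + (n + 3))
    (hG : (G : ℝ) ≤ R * a * l) (hM : S * l ≤ M) (hab : (a : ℝ) ≤ b)
    (h8 : 8 * ((n : ℝ) + 3) ^ 2 ≤ a)
    (h9 : 2 * ((n : ℝ) + 3) * (n + 2) * ((n + 3) ^ 3 + 3) ≤ a) :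
    2 * ((n + 3) * ((n + 2) * (2 * G + (n + 3) ^ 3 + 3) + 2 * G)) + b + 4 * (n + 3) ^ 2 * M ≤
      M * b := by
  have hn : (0 : ℝ) ≤ n := Nat.cast_nonneg n
  have hb0 : (0 : ℝ) ≤ b := Nat.cast_nonneg b
  have hM0 : (0 : ℝ) ≤ M := Nat.cast_nonneg M
  obtain ⟨m, hm⟩ : ∃ m : ℝ, m = (n : ℝ) + 3 := ⟨_, rfl⟩
  rw [← hm] at hS h8 h9
  have hm0 : 0 ≤ m := by linarith
  have h1 : 4 * m ^ 2 * G ≤ 4 * m ^ 2 * (R * l) * b := by
    calc 4 * m ^ 2 * (G : ℝ) ≤ 4 * m ^ 2 * (R * a * l) :=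
          mul_le_mul_of_nonneg_left hG (by positivity)
      _ = 4 * m ^ 2 * (R * l) * a := by ring
      _ ≤ 4 * m ^ 2 * (R * l) * b := mul_le_mul_of_nonneg_left hab (by positivity)
  have h2 : 4 * m ^ 2 * (R * l) + 2 ≤ M / 2 := by
    have h3 : 4 * 1 ≤ 4 * l := by linarith
    have h4 : 0 ≤ m * l := by positivity
    have h5 : S * l = 8 * m ^ 2 * R * l + 4 * l + m * l := by
      rw [hS]
      ring
    linarith
  have h6 : (4 * m ^ 2 * (R * l) + 2) * b ≤ M / 2 * b := mul_le_mul_of_nonneg_right h2 hb0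
  have h7 : 4 * m ^ 2 * M ≤ M / 2 * b := by
    have : M / 2 * (8 * m ^ 2) ≤ M / 2 * b :=
      mul_le_mul_of_nonneg_left (h8.trans hab) (by positivity)
    linarith
  have fin : 2 * (((n : ℝ) + 3) * (((n : ℝ) + 2) * (2 * G + ((n : ℝ) + 3) ^ 3 + 3) + 2 * G)) + b +
      4 * ((n : ℝ) + 3) ^ 2 * M ≤ M * b := by
    rw [← hm]
    have e : 2 * (m * (((n : ℝ) + 2) * (2 * G + m ^ 3 + 3) + 2 * G)) =
        4 * m ^ 2 * G + 2 * m * (n + 2) * (m ^ 3 + 3) := by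
      have : (n : ℝ) = m - 3 := by linarith
      rw [this]
      ring
    rw [e]
    linarith
  exact_mod_cast fin

end NK

open NK in
theorem numK (n p : ℕ) {κ T : ℝ} (hκ : 0 < κ) (hT : 0 < T) : ∃ K A : ℕ, ∀ a b : ℕ, A ≤ a →
    a + K ≤ b → b ≤ 2 * a → ∃ c M G : ℕ, a = M + c ∧ 1 ≤ c ∧ a ≤ 2 * c ∧ n + 3 ≤ M ∧
      2 * ((n + 3) * ((n + 2) * (2 * G + (n + 3) ^ 3 + 3) + 2 * G)) + b + 4 * (n + 3) ^ 2 * M ≤
        M * b ∧ (M : ℝ) ≤ κ / 4 * a ∧
      (c : ℝ) * (p * Real.log ((b : ℝ) * c + 1) + 64 * Real.exp T) < κ / 2 * (G + 1) ∧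
      (p : ℝ) * Real.log ((b : ℝ) * c + 1) + 4 * T * M + 2 * (n + 2) * ((b : ℝ) - c) +
        16 * Real.exp T ≤
          ((b : ℝ) - a) * (Real.log (Real.exp (-T) * c ^ 2 / 4) - Real.log b) := by
  have hn : (0 : ℝ) ≤ n := Nat.cast_nonneg n
  have hp : (0 : ℝ) ≤ p := Nat.cast_nonneg p
  have hE := Real.exp_pos T
  obtain ⟨E, hEE⟩ : ∃ E : ℝ, E = Real.exp T := ⟨_, rfl⟩
  rw [← hEE] at hE
  obtain ⟨R, hR⟩ : ∃ R : ℝ, R = 2 / κ * (3 * p + 64 * E) := ⟨_, rfl⟩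
  have hR0 : 0 ≤ R := by rw [hR]; positivity
  obtain ⟨S, hS⟩ : ∃ S : ℝ, S = 8 * ((n : ℝ) + 3) ^ 2 * R + 4 + (n + 3) := ⟨_, rfl⟩
  have hS0 : (n : ℝ) + 3 ≤ S := by
    have : 0 ≤ 8 * ((n : ℝ) + 3) ^ 2 * R := by positivity
    linarith
  obtain ⟨Q, hQ⟩ : ∃ Q : ℝ, Q = 3 * p + 4 * T * (S + 1) + 2 * (n + 2) * (S + 1) + 16 * E :=
    ⟨_, rfl⟩
  have hQ0 : 0 ≤ Q := by
    have : 0 ≤ S + 1 := by linarith
    rw [hQ]
    positivity
  have hev := (((Real.tendsto_log_atTop.eventually_ge_atTop (1 : ℝ)).and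
    (Real.tendsto_log_atTop.eventually_ge_atTop (2 * (T + 4 + 2 * ((n : ℝ) + 2))))).and
    ((ev_log (S + 1) (κ / 4) (by positivity)).and (ev_log (S + 1) (1 / 2) (by norm_num)))).and
    (((eventually_ge_atTop (3 : ℝ)).and (eventually_ge_atTop (8 * ((n : ℝ) + 3) ^ 2))).and
      (eventually_ge_atTop (2 * ((n : ℝ) + 3) * (n + 2) * ((n + 3) ^ 3 + 3))))
  obtain ⟨x₀, hx₀⟩ := eventually_atTop.mp hev
  refine ⟨⌈2 * Q⌉₊, ⌈x₀⌉₊, ?_⟩
  intro a b ha hab hb2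
  obtain ⟨⟨⟨f1, f2⟩, f3, f4⟩, ⟨f5, f6⟩, f7⟩ :=
    hx₀ (a : ℝ) ((Nat.le_ceil x₀).trans (by exact_mod_cast ha))
  obtain ⟨l, hl⟩ : ∃ l : ℝ, l = Real.log a := ⟨_, rfl⟩
  rw [← hl] at f1 f2 f3 f4
  have ha0 : (0 : ℝ) < a := by linarith
  have hb2' : (b : ℝ) ≤ 2 * a := by exact_mod_cast hb2
  have hK : 2 * Q ≤ (b : ℝ) - a := by
    have h1 : ((a : ℝ)) + (⌈2 * Q⌉₊ : ℝ) ≤ b := by exact_mod_cast hab
    have h2 := Nat.le_ceil (2 * Q)
    linarith
  have hab' : (a : ℝ) ≤ b := by linarith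
  have hb0 : (0 : ℝ) < b := by linarith
  obtain ⟨M, hM⟩ : ∃ M : ℕ, M = ⌈S * l⌉₊ := ⟨_, rfl⟩
  obtain ⟨G, hG⟩ : ∃ G : ℕ, G = ⌊R * a * l⌋₊ := ⟨_, rfl⟩
  have hSl : 0 ≤ S * l := mul_nonneg (by linarith) (by linarith)
  have hM1 : S * l ≤ M := by rw [hM]; exact Nat.le_ceil _
  have hM2 : (M : ℝ) ≤ (S + 1) * l := by
    have h1 : (M : ℝ) < S * l + 1 := by rw [hM]; exact Nat.ceil_lt_add_one hSl
    linarith
  have hG0 : 0 ≤ R * a * l := mul_nonneg (mul_nonneg hR0 ha0.le) (by linarith)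
  have hG1 : (G : ℝ) ≤ R * a * l := by rw [hG]; exact Nat.floor_le hG0
  have hG2 : R * a * l < G + 1 := by rw [hG]; exact Nat.lt_floor_add_one _
  have hMa : (M : ℝ) ≤ 1 / 2 * a := hM2.trans f4
  have hMa' : M ≤ a := by
    have : (M : ℝ) ≤ a := by linarith
    exact_mod_cast this
  obtain ⟨c, hc⟩ := Nat.exists_eq_add_of_le hMa'
  have hc' : (a : ℝ) = M + c := by exact_mod_cast hc
  have hc2 : (a : ℝ) ≤ 2 * c := by linarith
  have hc0 : (0 : ℝ) < c := by linarith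
  have hca : (c : ℝ) ≤ a := by
    have : (0 : ℝ) ≤ M := Nat.cast_nonneg M
    linarith
  have hlog := log_bc f5 hb2' hb0.le hca hc0.le
  rw [← hl] at hlog
  have hc1 : 1 ≤ c := by
    have : 0 < c := by exact_mod_cast hc0
    omega
  refine ⟨c, M, G, hc, hc1, by exact_mod_cast hc2, ?_, comb hR0 f1 hS hG1 hM1 hab' f6 f7,
    hM2.trans f3, ?_, ?_⟩
  · have h1 : (n : ℝ) + 3 ≤ M := by
      have h2 : S * 1 ≤ S * l := mul_le_mul_of_nonneg_left f1 (by linarith)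
      linarith
    exact_mod_cast h1
  · rw [← hEE]
    have h1 : (p : ℝ) * Real.log ((b : ℝ) * c + 1) + 64 * E ≤ (3 * p + 64 * E) * l := by
      have h2 := mul_le_mul_of_nonneg_left hlog hp
      have h3 : 64 * E * 1 ≤ 64 * E * l := mul_le_mul_of_nonneg_left f1 (by positivity)
      linarith
    have h4 : (c : ℝ) * (p * Real.log ((b : ℝ) * c + 1) + 64 * E) ≤
        a * ((3 * p + 64 * E) * l) := by
      have h5 : 0 ≤ (3 * p + 64 * E) * l := mul_nonneg (by positivity) (by linarith)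
      exact (mul_le_mul_of_nonneg_left h1 hc0.le).trans (mul_le_mul_of_nonneg_right hca h5)
    have h6 : a * ((3 * p + 64 * E) * l) = κ / 2 * (R * a * l) := by
      rw [hR]
      field_simp
    have h7 : κ / 2 * (R * a * l) < κ / 2 * (G + 1) := mul_lt_mul_of_pos_left hG2 (by positivity)
    linarith
  · rw [← hEE]
    have h1 := mul_le_mul_of_nonneg_left hlog hp
    have h2 : 4 * T * M ≤ 4 * T * ((S + 1) * l) := mul_le_mul_of_nonneg_left hM2 (by positivity)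
    have h3 : 2 * ((n : ℝ) + 2) * ((b : ℝ) - c) ≤
        2 * ((n : ℝ) + 2) * ((b : ℝ) - a) + 2 * ((n : ℝ) + 2) * ((S + 1) * l) := by
      have h4 : (b : ℝ) - c ≤ (b - a) + (S + 1) * l := by linarith
      have h5 := mul_le_mul_of_nonneg_left h4 (by positivity : 0 ≤ 2 * ((n : ℝ) + 2))
      linarith
    have h6 : 16 * E * 1 ≤ 16 * E * l := mul_le_mul_of_nonneg_left f1 (by positivity)
    have h7 : (p : ℝ) * Real.log ((b : ℝ) * c + 1) + 4 * T * M +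
        2 * (n + 2) * ((b : ℝ) - c) + 16 * E ≤ Q * l + 2 * ((n : ℝ) + 2) * ((b : ℝ) - a) := by
      have h8 : Q * l = p * (3 * l) + 4 * T * ((S + 1) * l) + 2 * ((n : ℝ) + 2) * ((S + 1) * l) +
          16 * E * l := by
        rw [hQ]
        ring
      linarith
    have hD : 0 ≤ (b : ℝ) - a := by linarith
    have h9 := mul_le_mul_of_nonneg_left (log_rhs (T := T) f5 hb2' hb0 hc2) hD
    rw [← hl] at h9
    have h10 : ((b : ℝ) - a) * (l / 2 + 2 * ((n : ℝ) + 2)) ≤ ((b : ℝ) - a) * (l - T - 4) :=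
      mul_le_mul_of_nonneg_left (by linarith) hD
    have h11 : 2 * Q * (l / 2) ≤ ((b : ℝ) - a) * (l / 2) :=
      mul_le_mul_of_nonneg_right hK (by linarith)
    linarith

end Vale.Agent.P181.KT
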