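import Vale.Agent.P181.R2.H959.FDefs

set_option autoImplicit false

open scoped TensorProduct

namespace Vale.Agent.P181.FR

open Vale.Agent.P181 Vale.Agent.P181.H280 Vale.Agent.P181.H54 MvPolynomial

/-- Tail weights: there is a power of the first fundamental weight which makes `nu` occur with
`B` boxes. -/
def GG (a m B : ℕ) (nu : Fin m → ℕ) : Prop :=
  ∃ t : ℕ, Pos B a m (nu + t • om m 1) ∧ ∑ i, (nu + t • om m 1) i = a * B

/-- The generators, as one statement. -/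
structure Gens (a m : ℕ) : Prop where
  mul : ∀ {B B' : ℕ} {mu mu' : Fin m → ℕ}, Pos B a m mu → Pos B' a m mu' → Pos (B + B') a m (mu + mu')
  zero : Pos 0 a m 0
  g0 : Pos 1 a m (a • om m 1)
  gD : ∀ {i p : ℕ}, 1 ≤ i → i ≤ m → Even p → p ≤ a → Pos i a m (p • om m i + (i * (a - p)) • om m 1)
  gE : ∀ {i : ℕ}, 3 ≤ i → i ≤ m → i ≤ a →
    Pos i a m (om m i + (i.choose 2) • om m 2 + (i * (a - i)) • om m 1)
  gE2 : 3 ≤ a → Pos 3 a m (3 • om m 2 + (3 * a - 6) • om m 1)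

lemma sum_om {m i : ℕ} (hi : i ≤ m) : ∑ k, om m i k = i := by
  classical
  unfold om
  rw [Finset.sum_boole]
  have h : (Finset.univ.filter fun k : Fin m => (k : ℕ) < i) = Finset.univ.map (Fin.castLEEmb hi) := by
    ext k
    simp only [Finset.mem_filter, Finset.mem_univ, true_and, Finset.mem_map, Fin.castLEEmb_apply]
    constructor
    · intro h
      exact ⟨⟨k, h⟩, by ext; rfl⟩
    · rintro ⟨j, rfl⟩
      exact j.2
  rw [h, Finset.card_map, Finset.card_univ, Fintype.card_fin]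
  rfl

lemma sum_smul_om {m i : ℕ} (hi : i ≤ m) (c : ℕ) : ∑ k, (c • om m i) k = c * i := by
  simp only [Pi.smul_apply, smul_eq_mul, ← Finset.mul_sum, sum_om hi]

lemma sum_add' {m : ℕ} (u v : Fin m → ℕ) : ∑ k, (u + v) k = ∑ k, u k + ∑ k, v k := by
  simp only [Pi.add_apply, Finset.sum_add_distrib]

variable {a m : ℕ}

lemma GG.add (G : Gens a m) {B B' : ℕ} {nu nu' : Fin m → ℕ} (h : GG a m B nu) (h' : GG a m B' nu') :
    GG a m (B + B') (nu + nu') := by
  obtain ⟨t, h1, h2⟩ := h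
  obtain ⟨t', h1', h2'⟩ := h'
  have he : nu + nu' + (t + t') • om m 1 = (nu + t • om m 1) + (nu' + t' • om m 1) := by
    rw [add_smul]; abel
  refine ⟨t + t', ?_, ?_⟩
  · rw [he]; exact G.mul h1 h1'
  · rw [he, sum_add', h2, h2']; ring

lemma GG.zero (G : Gens a m) : GG a m 0 (0 : Fin m → ℕ) := by
  refine ⟨0, ?_, ?_⟩
  · rw [zero_smul, add_zero]; exact G.zero
  · simp

lemma GG.one (G : Gens a m) (hm : 1 ≤ m) : GG a m 1 (0 : Fin m → ℕ) := by
  refine ⟨a, ?_, ?_⟩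
  · rw [zero_add]; exact G.g0
  · rw [zero_add, sum_smul_om hm]

lemma GG.many (G : Gens a m) (hm : 1 ≤ m) (k : ℕ) : GG a m k (0 : Fin m → ℕ) := by
  induction k with
  | zero => exact GG.zero G
  | succ k ih =>
    have := GG.add G ih (GG.one G hm)
    rwa [add_zero] at this

lemma GG.D (G : Gens a m) {i p : ℕ} (h1 : 1 ≤ i) (hi : i ≤ m) (hp : Even p) (hpa : p ≤ a) :
    GG a m i (p • om m i) := by
  refine ⟨i * (a - p), G.gD h1 hi hp hpa, ?_⟩
  rw [sum_add', sum_smul_om hi, sum_smul_om (h1.trans hi)]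
  have : p * i + i * (a - p) * 1 = i * (p + (a - p)) := by ring
  rw [this, Nat.add_sub_cancel' hpa, mul_comm]

lemma GG.E (G : Gens a m) {i : ℕ} (h3 : 3 ≤ i) (hi : i ≤ m) (hia : i ≤ a) :
    GG a m i (om m i + (i.choose 2) • om m 2) := by
  refine ⟨i * (a - i), G.gE h3 hi hia, ?_⟩
  rw [sum_add', sum_add', sum_om hi, sum_smul_om (by omega), sum_smul_om (by omega)]
  have h2 : i.choose 2 * 2 = i * (i - 1) := by
    rw [Nat.choose_two_right, Nat.div_mul_cancel]
    exact Nat.even_mul_pred_self i |>.two_dvd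
  rw [h2]
  have : i + i * (i - 1) + i * (a - i) * 1 = i * (1 + (i - 1) + (a - i)) := by ring
  rw [this, show 1 + (i - 1) + (a - i) = a by omega, mul_comm]

lemma GG.E2 (G : Gens a m) (hm : 3 ≤ m) (ha : 3 ≤ a) : GG a m 3 (3 • om m 2) := by
  refine ⟨3 * a - 6, G.gE2 ha, ?_⟩
  rw [sum_add', sum_smul_om (by omega), sum_smul_om (by omega)]
  omega

/-- even multiples of `om i` -/
lemma GG.even (G : Gens a m) {i : ℕ} (h1 : 1 ≤ i) (hi : i ≤ m) (k : ℕ) :
    ∀ c : ℕ, Even c → c ≤ k * (2 * (a / 2)) → GG a m (i * k) (c • om m i) := by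
  induction k with
  | zero =>
    intro c _ hc
    have : c = 0 := by omega
    rw [this, zero_smul, mul_zero]
    exact GG.zero G
  | succ k ih =>
    intro c hc hck
    have hc2 := hc.two_dvd
    have key : ∃ p c', Even p ∧ p ≤ a ∧ Even c' ∧ c' ≤ k * (2 * (a / 2)) ∧ c = c' + p := by
      rcases Nat.lt_or_ge c (2 * (a / 2)) with h | h
      · exact ⟨c, 0, hc, by omega, by simp, Nat.zero_le _, by omega⟩
      · refine ⟨2 * (a / 2), c - 2 * (a / 2), even_two_mul _, by omega, ?_, ?_, by omega⟩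
        · rw [Nat.even_iff]; omega
        · have : (k + 1) * (2 * (a / 2)) = k * (2 * (a / 2)) + 2 * (a / 2) := by ring
          omega
    obtain ⟨p, c', hp, hpa, hc', hck', rfl⟩ := key
    have h2 := GG.add G (ih c' hc' hck') (GG.D G h1 hi hp hpa)
    rw [← add_smul] at h2
    rwa [Nat.mul_succ]

/-- number of boxes -/
lemma kbound {a e : ℕ} (ha : 2 ≤ a) : (a - 1) * (e / (2 * (a / 2)) + 1) ≤ e + (a - 1) := by
  have h1 : a - 1 ≤ 2 * (a / 2) := by omega
  have h2 : (2 * (a / 2)) * (e / (2 * (a / 2))) ≤ e := Nat.mul_div_le _ _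
  have h3 : (a - 1) * (e / (2 * (a / 2))) ≤ (2 * (a / 2)) * (e / (2 * (a / 2))) :=
    Nat.mul_le_mul_right _ h1
  rw [mul_add, mul_one]
  omega

lemma kcover {a e : ℕ} (ha : 2 ≤ a) : e ≤ (e / (2 * (a / 2)) + 1) * (2 * (a / 2)) := by
  have h0 : 0 < 2 * (a / 2) := by omega
  have := Nat.lt_div_mul_add (a := e) h0
  rw [add_mul, one_mul]
  exact this.le

/-- one column length `i >= 3` -/
lemma GG.col (G : Gens a m) (ha : m ≤ a) {i : ℕ} (h3 : 3 ≤ i) (hi : i ≤ m) (c : ℕ) :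
    ∃ B S : ℕ, GG a m B (c • om m i + S • om m 2) ∧ (a - 1) * B ≤ c * i + (a - 1) * (2 * m) ∧
      S ≤ m ^ 2 := by
  have ha2 : 2 ≤ a := by omega
  have hD := GG.even G (by omega : 1 ≤ i) hi ((2 * (c / 2)) / (2 * (a / 2)) + 1) (2 * (c / 2))
    (even_two_mul _) (kcover ha2)
  have hk := kbound (e := 2 * (c / 2)) ha2
  set k := (2 * (c / 2)) / (2 * (a / 2)) + 1
  rcases Nat.even_or_odd c with hc | hc
  · refine ⟨i * k, 0, ?_, ?_, Nat.zero_le _⟩
    · rw [zero_smul, add_zero]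
      have : 2 * (c / 2) = c := by
        have := hc.two_dvd; omega
      rwa [this] at hD
    · calc (a - 1) * (i * k) = ((a - 1) * k) * i := by ring
        _ ≤ (2 * (c / 2) + (a - 1)) * i := Nat.mul_le_mul_right _ hk
        _ ≤ (c + (a - 1)) * i := Nat.mul_le_mul_right _ (by omega)
        _ = c * i + (a - 1) * i := by ring
        _ ≤ c * i + (a - 1) * (2 * m) :=
          Nat.add_le_add_left (Nat.mul_le_mul_left _ (by omega)) _
  · refine ⟨i * k + i, i.choose 2, ?_, ?_, ?_⟩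
    · have h2 := GG.add G hD (GG.E G h3 hi (hi.trans ha))
      have hcc : 2 * (c / 2) + 1 = c := by
        obtain ⟨d, hd⟩ := hc; omega
      have he : (2 * (c / 2)) • om m i + (om m i + i.choose 2 • om m 2) =
          c • om m i + i.choose 2 • om m 2 := by
        rw [← add_assoc, ← succ_nsmul, hcc]
      rwa [he] at h2
    · calc (a - 1) * (i * k + i) = ((a - 1) * k) * i + (a - 1) * i := by ring
        _ ≤ (2 * (c / 2) + (a - 1)) * i + (a - 1) * i :=
          Nat.add_le_add_right (Nat.mul_le_mul_right _ hk) _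
        _ ≤ (c + (a - 1)) * i + (a - 1) * i :=
          Nat.add_le_add_right (Nat.mul_le_mul_right _ (by omega)) _
        _ = c * i + (a - 1) * (2 * i) := by ring
        _ ≤ c * i + (a - 1) * (2 * m) :=
          Nat.add_le_add_left (Nat.mul_le_mul_left _ (by omega)) _
    · rw [Nat.choose_two_right]
      calc i * (i - 1) / 2 ≤ i * (i - 1) := Nat.div_le_self _ _
        _ ≤ m * m := Nat.mul_le_mul hi (by omega)
        _ = m ^ 2 := by ring

/-- column length 2 -/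
lemma GG.col2 (G : Gens a m) (ha : m ≤ a) (hm : 3 ≤ m) (c : ℕ) (hc3 : 3 ≤ c) :
    ∃ B : ℕ, GG a m B (c • om m 2) ∧ (a - 1) * B ≤ c * 2 + (a - 1) * 5 := by
  have ha2 : 2 ≤ a := by omega
  rcases Nat.even_or_odd c with hc | hc
  · have hD := GG.even G (by omega : 1 ≤ 2) (by omega : 2 ≤ m) (c / (2 * (a / 2)) + 1) c
      hc (kcover ha2)
    have hk := kbound (e := c) ha2
    refine ⟨_, hD, ?_⟩
    calc (a - 1) * (2 * (c / (2 * (a / 2)) + 1)) = ((a - 1) * (c / (2 * (a / 2)) + 1)) * 2 := by ring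
      _ ≤ (c + (a - 1)) * 2 := Nat.mul_le_mul_right _ hk
      _ ≤ c * 2 + (a - 1) * 5 := by omega
  · obtain ⟨d, hd⟩ := hc
    have hev : Even (c - 3) := by
      rw [Nat.even_iff]; omega
    have hD := GG.even G (by omega : 1 ≤ 2) (by omega : 2 ≤ m) ((c - 3) / (2 * (a / 2)) + 1) (c - 3)
      hev (kcover ha2)
    have hk := kbound (e := c - 3) ha2
    have h2 := GG.add G hD (GG.E2 G hm (by omega))
    rw [← add_smul, Nat.sub_add_cancel hc3] at h2
    refine ⟨_, h2, ?_⟩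
    calc (a - 1) * (2 * ((c - 3) / (2 * (a / 2)) + 1) + 3)
        = ((a - 1) * ((c - 3) / (2 * (a / 2)) + 1)) * 2 + (a - 1) * 3 := by ring
      _ ≤ ((c - 3) + (a - 1)) * 2 + (a - 1) * 3 :=
        Nat.add_le_add_right (Nat.mul_le_mul_right _ hk) _
      _ ≤ c * 2 + (a - 1) * 5 := by omega

/-- truncated weights -/
def tr {m : ℕ} (f : ℕ → ℕ) (r : ℕ) : Fin m → ℕ := fun k => f (max (k : ℕ) r)

lemma tr_step {m : ℕ} (f : ℕ → ℕ) (r : ℕ) (hf : f (r + 1) ≤ f r) :
    (tr f r : Fin m → ℕ) = tr f (r + 1) + (f r - f (r + 1)) • om m (r + 1) := by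
  funext k
  simp only [tr, Pi.add_apply, Pi.smul_apply, smul_eq_mul, om]
  rcases Nat.lt_or_ge (k : ℕ) (r + 1) with h | h
  · rw [if_pos h, max_eq_right (by omega : (k : ℕ) ≤ r), max_eq_right (by omega : (k : ℕ) ≤ r + 1)]
    omega
  · rw [if_neg (by omega), max_eq_left (by omega : r ≤ (k : ℕ)), max_eq_left h]
    omega

lemma GG.tail (G : Gens a m) (ha : m ≤ a) (f : ℕ → ℕ) (hf : ∀ k, 1 ≤ k → f (k + 1) ≤ f k)
    (hfm : ∀ k, m ≤ k → f k = 0) (d : ℕ) :
    ∀ r, 2 ≤ r → r + d = m → ∃ B S : ℕ, GG a m B ((tr f r : Fin m → ℕ) + S • om m 2) ∧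
      (a - 1) * B ≤ ∑ k, (tr f r : Fin m → ℕ) k + (a - 1) * (2 * m * d) ∧ S ≤ d * m ^ 2 := by
  induction d with
  | zero =>
    intro r hr hrm
    have hz : (tr f r : Fin m → ℕ) = 0 := by
      funext k
      simp only [tr, Pi.zero_apply]
      exact hfm _ (by omega)
    refine ⟨0, 0, ?_, by simp, by simp⟩
    rw [hz, zero_smul, add_zero]
    exact GG.zero G
  | succ d ih =>
    intro r hr hrm
    obtain ⟨B, S, h1, h2, h3⟩ := ih (r + 1) (by omega) (by omega)
    obtain ⟨B', S', h1', h2', h3'⟩ := GG.col G ha (i := r + 1) (by omega) (by omega) (f r - f (r + 1))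
    have hst := tr_step (m := m) f r (hf r (by omega))
    refine ⟨B + B', S + S', ?_, ?_, ?_⟩
    · have h4 := GG.add G h1 h1'
      have he : (tr f (r + 1) : Fin m → ℕ) + S • om m 2 + ((f r - f (r + 1)) • om m (r + 1) + S' • om m 2)
          = tr f r + (S + S') • om m 2 := by
        rw [hst, add_smul]; abel
      rwa [he] at h4
    · rw [hst, sum_add', sum_smul_om (by omega)]
      calc (a - 1) * (B + B') = (a - 1) * B + (a - 1) * B' := by ring
        _ ≤ (∑ k, (tr f (r + 1) : Fin m → ℕ) k + (a - 1) * (2 * m * d)) +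
            ((f r - f (r + 1)) * (r + 1) + (a - 1) * (2 * m)) := Nat.add_le_add h2 h2'
        _ = ∑ k, (tr f (r + 1) : Fin m → ℕ) k + (f r - f (r + 1)) * (r + 1) +
            (a - 1) * (2 * m * (d + 1)) := by ring
    · calc S + S' ≤ d * m ^ 2 + m ^ 2 := Nat.add_le_add h3 h3'
        _ = (d + 1) * m ^ 2 := by ring

theorem pos_of_gens {a B n : ℕ} (G : Gens a (n + 3)) (mu : Fin (n + 3) → ℕ)
    (hsum : ∑ i, mu i = a * B) (ha : n + 3 ≤ a)
    (h0 : mu 1 + B + 4 * (n + 3) ^ 2 * a ≤ mu 0) (h1 : mu 2 + (n + 3) ^ 3 + 3 ≤ mu 1)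
    (hanti : ∀ i j : Fin (n + 3), 1 ≤ i → i ≤ j → mu j ≤ mu i) : Pos B a (n + 3) mu := by
  let f : ℕ → ℕ := fun k => if h : k < n + 3 then mu ⟨k, h⟩ else 0
  have hfk : ∀ k : Fin (n + 3), f k = mu k := by
    intro k
    simp only [f, k.2, dif_pos]
  have hf0 : f 0 = mu 0 := hfk 0
  have hf1 : f 1 = mu 1 := by
    have := hfk 1
    rwa [show ((1 : Fin (n + 3)) : ℕ) = 1 by simp] at this
  have hf2 : f 2 = mu 2 := by
    have := hfk 2
    have h2 : ((2 : Fin (n + 3)) : ℕ) = 2 := by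
      show 2 % (n + 3) = 2
      exact Nat.mod_eq_of_lt (show (2 : ℕ) < n + 3 by omega)
    rwa [h2] at this
  have hfm : ∀ k, n + 3 ≤ k → f k = 0 := by
    intro k hk
    simp only [f, not_lt.2 hk, dif_neg, not_false_iff]
  have hf : ∀ k, 1 ≤ k → f (k + 1) ≤ f k := by
    intro k hk
    rcases Nat.lt_or_ge (k + 1) (n + 3) with h | h
    · have e1 := hfk ⟨k + 1, h⟩
      have e2 := hfk ⟨k, by omega⟩
      simp only at e1 e2
      rw [e1, e2]
      apply hanti
      · rw [Fin.le_def]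
        simpa using hk
      · rw [Fin.le_def]
        exact Nat.le_succ k
    · rw [hfm _ h]; exact Nat.zero_le _
  obtain ⟨B1, S, g1, g2, g3⟩ := GG.tail G ha f hf hfm (n + 1) 2 le_rfl (by omega)
  have hS : S + 3 ≤ f 1 - f 2 := by
    have : S ≤ (n + 3) ^ 3 := by
      calc S ≤ (n + 1) * (n + 3) ^ 2 := g3
        _ ≤ (n + 3) * (n + 3) ^ 2 := Nat.mul_le_mul_right _ (by omega)
        _ = (n + 3) ^ 3 := by ring
    rw [hf1, hf2]; omega
  obtain ⟨B2, k1, k2⟩ := GG.col2 G ha (by omega) (f 1 - f 2 - S) (by omega)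
  have hst1 := tr_step (m := n + 3) f 1 (hf 1 le_rfl)
  have hst0 := tr_step (m := n + 3) f 0 (by rw [hf0, hf1]; omega)
  have g4 : GG a (n + 3) (B1 + B2) (tr f 1 : Fin (n + 3) → ℕ) := by
    have h4 := GG.add G g1 k1
    have he : (tr f 2 : Fin (n + 3) → ℕ) + S • om (n + 3) 2 + (f 1 - f 2 - S) • om (n + 3) 2 = tr f 1 := by
      rw [hst1, add_assoc, ← add_smul, show S + (f 1 - f 2 - S) = f 1 - f 2 by omega]
    rwa [he] at h4
  have hmu : (tr f 0 : Fin (n + 3) → ℕ) = mu := by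
    funext k
    simp only [tr, Nat.max_zero]
    exact hfk k
  have hs1 : ∑ k, mu k = ∑ k, (tr f 1 : Fin (n + 3) → ℕ) k + (f 0 - f 1) := by
    rw [← hmu, hst0, sum_add', sum_smul_om (by omega)]
    simp
  have hs2 : ∑ k, (tr f 1 : Fin (n + 3) → ℕ) k = ∑ k, (tr f 2 : Fin (n + 3) → ℕ) k + (f 1 - f 2) * 2 := by
    rw [hst1, sum_add', sum_smul_om (by omega)]
  -- number of boxes
  have hB : B1 + B2 ≤ B := by
    have ha1 : 0 < a - 1 := by omega
    refine Nat.le_of_mul_le_mul_left ?_ ha1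
    have e1 : (a - 1) * (B1 + B2) ≤ ∑ k, (tr f 1 : Fin (n + 3) → ℕ) k + (a - 1) * (2 * (n + 3) * (n + 1) + 5) := by
      calc (a - 1) * (B1 + B2) = (a - 1) * B1 + (a - 1) * B2 := by ring
        _ ≤ (∑ k, (tr f 2 : Fin (n + 3) → ℕ) k + (a - 1) * (2 * (n + 3) * (n + 1))) +
            ((f 1 - f 2 - S) * 2 + (a - 1) * 5) := Nat.add_le_add g2 k2
        _ ≤ (∑ k, (tr f 2 : Fin (n + 3) → ℕ) k + (a - 1) * (2 * (n + 3) * (n + 1))) +
            ((f 1 - f 2) * 2 + (a - 1) * 5) := by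
            refine Nat.add_le_add_left (Nat.add_le_add_right (Nat.mul_le_mul_right _ ?_) _) _
            exact Nat.sub_le _ _
        _ = _ := by rw [hs2]; ring
    have e2 : (a - 1) * (2 * (n + 3) * (n + 1) + 5) ≤ 4 * (n + 3) ^ 2 * a := by
      have : 2 * (n + 3) * (n + 1) + 5 ≤ 4 * (n + 3) ^ 2 := by
        nlinarith
      calc (a - 1) * (2 * (n + 3) * (n + 1) + 5) ≤ a * (4 * (n + 3) ^ 2) := Nat.mul_le_mul (by omega) this
        _ = 4 * (n + 3) ^ 2 * a := by ring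
    have e3 : (a - 1) * B + B = a * B := by
      have : a - 1 + 1 = a := by omega
      calc (a - 1) * B + B = (a - 1 + 1) * B := by ring
        _ = a * B := by rw [this]
    rw [hsum] at hs1
    rw [hf0, hf1] at hs1
    omega
  obtain ⟨C, rfl⟩ := Nat.exists_eq_add_of_le hB
  have g5 := GG.add G g4 (GG.many G (by omega) C)
  rw [add_zero] at g5
  obtain ⟨t, p1, p2⟩ := g5
  have ht : (tr f 1 : Fin (n + 3) → ℕ) + t • om (n + 3) 1 = mu := by
    have h5 : t = f 0 - f 1 := by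
      rw [sum_add', sum_smul_om (by omega), mul_one, ← hsum, hs1] at p2
      omega
    rw [h5, ← hst0, hmu]
  rwa [ht] at p1

end Vale.Agent.P181.FR
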