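import Mathlib

/-!
# P181, row G1: the numbers when the number of rows grows like a power of `a` (helper764)
-/

namespace Vale.Agent.P181.FR

open Filter Topology

namespace N4

/-- `log a! ≥ a log a - a` -/
theorem log_fac (a : ℕ) (ha : 1 ≤ a) : (a : ℝ) * Real.log a - a ≤ Real.log (a.factorial : ℝ) := by
  have h1 : ((a : ℝ) / Real.exp 1) ^ a ≤ (a.factorial : ℝ) := by
    have h2 : (a : ℝ) ^ a / (a.factorial : ℝ) ≤ Real.exp a := by
      have := Real.pow_div_factorial_le_exp (a : ℝ) (Nat.cast_nonneg a) a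
      exact this
    have hf : (0 : ℝ) < a.factorial := by exact_mod_cast a.factorial_pos
    rw [div_pow, ← Real.exp_nat_mul, mul_one, div_le_iff₀ (Real.exp_pos _)]
    rw [div_le_iff₀ hf] at h2
    linarith
  have ha0 : (0 : ℝ) < a := by exact_mod_cast ha
  have h3 := Real.log_le_log (by positivity) h1
  rw [Real.log_pow, Real.log_div ha0.ne' (Real.exp_pos 1).ne', Real.log_exp] at h3
  linarith

/-- the choice of `c`, `h`, `s` -/
theorem choice {κ : ℝ} (h0 : 0 < κ) (h1 : κ < 1 / 20) (n a b : ℕ) (ha : (1 : ℝ) ≤ a)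
    (f1 : 6 ≤ (a : ℝ) ^ κ) (hm : (n : ℝ) + 3 ≤ (a : ℝ) ^ κ) (hb : 1 ≤ b)
    (hb2 : (b : ℝ) ≤ (a : ℝ) ^ (1 + 2 * κ)) :
    ∃ c h s : ℕ, (c : ℝ) + (n + 3) ≤ a ∧ (n + 2) * h ≤ c ∧ s * b ≤ h ^ (n + 2) ∧
      (c : ℝ) + 1 + 4 * (n + 3) ^ 2 ≤ (a : ℝ) ^ (1 - κ) ∧
      (a : ℝ) ^ ((1 - 5 * κ) * (n + 2) - 1) ≤ s := by
  have ha0 : (0 : ℝ) < a := by linarith
  have hn0 : (0 : ℝ) ≤ n := Nat.cast_nonneg n
  obtain ⟨y, hy⟩ : ∃ y : ℝ, y = (a : ℝ) ^ κ := ⟨_, rfl⟩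
  obtain ⟨v, hv⟩ : ∃ v : ℝ, v = (a : ℝ) ^ (1 - 4 * κ) := ⟨_, rfl⟩
  obtain ⟨u, hu⟩ : ∃ u : ℝ, u = (a : ℝ) ^ (1 - 2 * κ) := ⟨_, rfl⟩
  obtain ⟨E, hE⟩ : ∃ E : ℝ, E = (a : ℝ) ^ ((1 - 5 * κ) * (n + 2) - 1) := ⟨_, rfl⟩
  rw [← hy] at f1 hm
  have hy0 : 0 < y := by linarith
  have hv1 : 1 ≤ v := by rw [hv]; exact Real.one_le_rpow ha (by linarith)
  have hE1 : 1 ≤ E := by
    rw [hE]
    refine Real.one_le_rpow ha ?_
    have h2 : (1 - 5 * κ) * 2 ≤ (1 - 5 * κ) * (n + 2) :=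
      mul_le_mul_of_nonneg_left (by linarith) (by linarith)
    linarith
  have huv : u = y * y * v := by
    rw [hu, hy, hv, ← Real.rpow_add ha0, ← Real.rpow_add ha0]
    congr 1
    ring
  have hay : (a : ℝ) = y * y * u := by
    rw [hu, hy, ← Real.rpow_add ha0, ← Real.rpow_add ha0]
    conv_lhs => rw [← Real.rpow_one (a : ℝ)]
    congr 1
    ring
  have hak : (a : ℝ) ^ (1 - κ) = y * u := by
    rw [hu, hy, ← Real.rpow_add ha0]
    congr 1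
    ring
  have hyy : y * y ≤ u := by
    rw [huv]
    have := mul_le_mul_of_nonneg_left hv1 (mul_pos hy0 hy0).le
    linarith
  have hy1 : y ≤ y * y := by
    have := mul_le_mul_of_nonneg_left (by linarith : 1 ≤ y) hy0.le
    linarith
  have hu0 : 0 < u := by linarith
  have h36 : 36 ≤ y * y := by
    have := mul_le_mul f1 f1 (by norm_num) hy0.le
    linarith
  obtain ⟨c, hc⟩ : ∃ c : ℕ, c = ⌊u⌋₊ := ⟨_, rfl⟩
  have hcu : (c : ℝ) ≤ u := by rw [hc]; exact Nat.floor_le hu0.le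
  have hcu' : u < c + 1 := by rw [hc]; exact Nat.lt_floor_add_one u
  obtain ⟨h, hh⟩ : ∃ h : ℕ, h = c / (n + 2) := ⟨_, rfl⟩
  have hh1 : (n + 2) * h ≤ c := by rw [hh]; exact Nat.mul_div_le c (n + 2)
  have hh2 : c < (n + 2) * h + (n + 2) := by
    rw [hh]
    have := Nat.lt_mul_div_succ c (show 0 < n + 2 by omega)
    linarith
  have hh3 : 2 * v ≤ h := by
    have k1 : (c : ℝ) + 1 ≤ ((n : ℝ) + 2) * h + (n + 2) := by exact_mod_cast hh2
    have k2 : y * y * v ≤ ((n : ℝ) + 2) * (h + 1) := by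
      rw [← huv]
      linarith
    have k3 : ((n : ℝ) + 2) * (h + 1) ≤ y * (h + 1) :=
      mul_le_mul_of_nonneg_right (by linarith) (by positivity)
    have k4 : y * v ≤ h + 1 := by
      refine le_of_mul_le_mul_left ?_ hy0
      calc y * (y * v) = y * y * v := by ring
        _ ≤ y * (h + 1) := k2.trans k3
    have k5 : 6 * v ≤ y * v := mul_le_mul_of_nonneg_right f1 (by linarith)
    linarith
  obtain ⟨s, hs⟩ : ∃ s : ℕ, s = h ^ (n + 2) / b := ⟨_, rfl⟩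
  have hs1 : s * b ≤ h ^ (n + 2) := by rw [hs]; exact Nat.div_mul_le_self _ _
  have hs2 : h ^ (n + 2) < b * (s + 1) := by
    rw [hs]
    have := Nat.lt_mul_div_succ (h ^ (n + 2)) hb
    exact this
  have hs3 : E ≤ s := by
    obtain ⟨F, hF⟩ : ∃ F : ℝ, F = (a : ℝ) ^ (1 + 2 * κ) := ⟨_, rfl⟩
    have hF0 : 0 < F := by rw [hF]; positivity
    rw [← hF] at hb2
    have k1 : (2 * v) ^ (n + 2) ≤ (h : ℝ) ^ (n + 2) := pow_le_pow_left₀ (by linarith) hh3 _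
    have k2 : (h : ℝ) ^ (n + 2) ≤ b * (s + 1) := by exact_mod_cast hs2.le
    have k3 : (b : ℝ) * (s + 1) ≤ F * (s + 1) := mul_le_mul_of_nonneg_right hb2 (by positivity)
    have k4 : (4 : ℝ) * v ^ (n + 2) ≤ (2 * v) ^ (n + 2) := by
      rw [mul_pow]
      refine mul_le_mul_of_nonneg_right ?_ (by positivity)
      have : (2 : ℝ) ^ 2 ≤ 2 ^ (n + 2) := pow_le_pow_right₀ (by norm_num) (by omega)
      linarith
    have k5 : F * E ≤ v ^ (n + 2) := by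
      rw [hF, hE, hv, ← Real.rpow_natCast ((a : ℝ) ^ (1 - 4 * κ)), ← Real.rpow_mul ha0.le,
        ← Real.rpow_add ha0]
      refine Real.rpow_le_rpow_of_exponent_le ha ?_
      push_cast
      have := mul_nonneg h0.le hn0
      linarith
    have k6 : F * (4 * E) ≤ F * (s + 1) := by linarith
    have k7 := le_of_mul_le_mul_left k6 hF0
    linarith
  refine ⟨c, h, s, ?_, hh1, hs1, ?_, by rw [← hE]; exact hs3⟩
  · have := mul_le_mul_of_nonneg_right h36 hu0.le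
    rw [hay]
    linarith
  · rw [hak]
    have k1 : ((n : ℝ) + 3) ^ 2 ≤ y * y := by
      rw [sq]
      exact mul_le_mul hm hm (by positivity) hy0.le
    have k2 := mul_le_mul_of_nonneg_right f1 hu0.le
    linarith

theorem bound_b (n : ℕ) {a b : ℕ} (hab : (a : ℝ) ≤ b) (hb0 : (1 : ℝ) ≤ b) :
    Real.log (((b : ℝ) + 1) ^ (n + 2) + a) ≤
      Real.log 2 + ((n : ℝ) + 2) * (Real.log 2 + Real.log b) := by
  have hb1 : (0 : ℝ) < b := by linarith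
  have h2 : ((b : ℝ) + 1) ^ (n + 2) ≤ (2 * b) ^ (n + 2) :=
    pow_le_pow_left₀ (by positivity) (by linarith) _
  have h3 : (a : ℝ) ≤ (2 * b) ^ (n + 2) := by
    have h5 : (2 * b : ℝ) ^ 1 ≤ (2 * b) ^ (n + 2) := pow_le_pow_right₀ (by linarith) (by omega)
    rw [pow_one] at h5
    linarith
  have h6 : ((b : ℝ) + 1) ^ (n + 2) + a ≤ 2 * (2 * b) ^ (n + 2) := by linarith
  refine (Real.log_le_log (by positivity) h6).trans (le_of_eq ?_)
  rw [Real.log_mul (by norm_num) (by positivity), Real.log_pow,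
    Real.log_mul (by norm_num) hb1.ne']
  push_cast
  ring

theorem final {δ κ : ℝ} (h0 : 0 < κ) (h1 : κ < 1 / 20) (hδ : 36 * κ ≤ δ) (n : ℕ)
    {a b c s N : ℕ} (ha : (1 : ℝ) ≤ a) (f2 : 6 * ((a : ℝ) ^ κ * (a : ℝ) ^ κ) ≤ κ * a)
    (f3 : 2 ≤ κ * Real.log a) (hm : (n : ℝ) + 3 ≤ (a : ℝ) ^ κ)
    (hN : N = (n + 3) * (n + 3) + (n + 3)) (hb1 : (1 + δ) * (a : ℝ) ≤ b)
    (hb2 : (b : ℝ) ≤ (a : ℝ) ^ (1 + 2 * κ)) (hca : (c : ℝ) + (n + 3) ≤ a)
    (hs : (a : ℝ) ^ ((1 - 5 * κ) * (n + 2) - 1) ≤ s)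
    {L : ℕ} (hL0 : 0 < L) (hL : a.factorial * L ≤ ((b + 1) ^ (n + 2) + a) ^ a) :
    L * (b * c + 1) ^ N ≤ s ^ b := by
  have ha0 : (0 : ℝ) < a := by linarith
  have hn0 : (0 : ℝ) ≤ n := Nat.cast_nonneg n
  have hδ0 : 0 < δ := by linarith
  have hab : (a : ℝ) ≤ b := by
    have := mul_pos hδ0 ha0
    linarith
  have hb0 : (1 : ℝ) ≤ b := by linarith
  have hL0' : (0 : ℝ) < L := by exact_mod_cast hL0
  have hfac : (0 : ℝ) < a.factorial := by exact_mod_cast a.factorial_pos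
  have hE0 : 0 < (a : ℝ) ^ ((1 - 5 * κ) * (n + 2) - 1) := by positivity
  have hs0 : (0 : ℝ) < s := by linarith
  obtain ⟨x, hx⟩ : ∃ x : ℝ, x = Real.log a := ⟨_, rfl⟩
  have hx0 : 0 ≤ x := by rw [hx]; exact Real.log_nonneg ha
  have hlb : Real.log b ≤ (1 + 2 * κ) * x := by
    rw [hx, ← Real.log_rpow ha0]
    exact Real.log_le_log (by linarith) hb2
  have he : 0 ≤ (1 - 5 * κ) * (n + 2) - 1 := by
    have h2 : (1 - 5 * κ) * 2 ≤ (1 - 5 * κ) * (n + 2) :=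
      mul_le_mul_of_nonneg_left (by linarith) (by linarith)
    linarith
  have hls : ((1 - 5 * κ) * (n + 2) - 1) * x ≤ Real.log s := by
    rw [hx, ← Real.log_rpow ha0]
    exact Real.log_le_log hE0 hs
  have g1 : Real.log (a.factorial : ℝ) + Real.log L ≤
      a * Real.log (((b : ℝ) + 1) ^ (n + 2) + a) := by
    rw [← Real.log_mul hfac.ne' hL0'.ne', ← Real.log_pow]
    refine Real.log_le_log (by positivity) ?_
    exact_mod_cast hL
  have g2 := bound_b n hab hb0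
  have g3 : Real.log ((b : ℝ) * c + 1) ≤ 3 * x := by
    have k1 : (b : ℝ) * c + 1 ≤ b * a := by
      have : (b : ℝ) * (c + 1) ≤ b * a := mul_le_mul_of_nonneg_left (by linarith) (by linarith)
      linarith
    have k2 : Real.log ((b : ℝ) * c + 1) ≤ Real.log (b * a) :=
      Real.log_le_log (by positivity) k1
    rw [Real.log_mul (by linarith) ha0.ne', ← hx] at k2
    have k3 : 2 * κ * x ≤ 1 * x := mul_le_mul_of_nonneg_right (by linarith) hx0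
    linarith
  have g4 : (1 + δ) * a * (((1 - 5 * κ) * (n + 2) - 1) * x) ≤ b * Real.log s :=
    mul_le_mul hb1 hls (mul_nonneg he hx0) (by linarith)
  have g6 := log_fac a (by exact_mod_cast ha)
  rw [← hx] at g6 f3
  have hl2 : Real.log 2 ≤ 0.7 := by
    have := Real.log_two_lt_d9
    linarith
  -- the bound for `log L`
  have k1 : Real.log L ≤ a * (Real.log 2 + ((n : ℝ) + 2) * (Real.log 2 + (1 + 2 * κ) * x)) -
      (a * x - a) := by
    have k2 : ((n : ℝ) + 2) * (Real.log 2 + Real.log b) ≤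
        ((n : ℝ) + 2) * (Real.log 2 + (1 + 2 * κ) * x) :=
      mul_le_mul_of_nonneg_left (by linarith) (by linarith)
    have := mul_le_mul_of_nonneg_left (g2.trans (add_le_add_right k2 (Real.log 2))) ha0.le
    linarith
  have k2 : (N : ℝ) * Real.log ((b : ℝ) * c + 1) ≤ a * (κ * x) := by
    have k3 : (N : ℝ) ≤ 2 * ((a : ℝ) ^ κ * (a : ℝ) ^ κ) := by
      have k4 : ((n : ℝ) + 3) * (n + 3) ≤ (a : ℝ) ^ κ * (a : ℝ) ^ κ :=
        mul_le_mul hm hm (by linarith) (by positivity)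
      have k5 : ((n : ℝ) + 3) * 1 ≤ ((n : ℝ) + 3) * (n + 3) :=
        mul_le_mul_of_nonneg_left (by linarith) (by linarith)
      rw [hN]
      push_cast
      linarith
    have k6 : (N : ℝ) * Real.log ((b : ℝ) * c + 1) ≤ N * (3 * x) :=
      mul_le_mul_of_nonneg_left g3 (Nat.cast_nonneg N)
    have k7 : (N : ℝ) * (3 * x) ≤ 2 * ((a : ℝ) ^ κ * (a : ℝ) ^ κ) * (3 * x) :=
      mul_le_mul_of_nonneg_right k3 (by linarith)
    have k8 : 6 * ((a : ℝ) ^ κ * (a : ℝ) ^ κ) * x ≤ κ * a * x :=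
      mul_le_mul_of_nonneg_right f2 hx0
    linarith
  have k3 : Real.log 2 + ((n : ℝ) + 2) * (Real.log 2 + (1 + 2 * κ) * x) - (x - 1) + κ * x ≤
      (1 + δ) * (((1 - 5 * κ) * (n + 2) - 1) * x) := by
    obtain ⟨q, hq⟩ : ∃ q : ℝ, q = (n : ℝ) + 2 := ⟨_, rfl⟩
    rw [← hq]
    have hq2 : 2 ≤ q := by linarith
    have r1 : q * Real.log 2 ≤ q * 0.7 := mul_le_mul_of_nonneg_left hl2 (by linarith)
    have r2 : q * 2 ≤ q * (κ * x) := mul_le_mul_of_nonneg_left f3 (by linarith)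
    have r3 : 2 * (κ * x) ≤ q * (κ * x) := mul_le_mul_of_nonneg_right hq2 (by linarith)
    have r4 : 9 * κ * q ≤ δ * ((1 - 5 * κ) * q - 1) := by
      have r5 : q * (1 / 4) ≤ (1 - 5 * κ) * q - 1 := by
        have r6 : 5 * κ * q ≤ 1 / 4 * q := mul_le_mul_of_nonneg_right (by linarith) (by linarith)
        linarith
      have r7 := mul_le_mul_of_nonneg_left r5 hδ0.le
      have r8 : 36 * κ * (q * (1 / 4)) ≤ δ * (q * (1 / 4)) :=
        mul_le_mul_of_nonneg_right hδ (by linarith)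
      linarith
    have r9 := mul_le_mul_of_nonneg_right r4 hx0
    linarith
  have k4 := mul_le_mul_of_nonneg_left k3 ha0.le
  have key : Real.log L + N * Real.log ((b : ℝ) * c + 1) ≤ b * Real.log s := by linarith
  have hbc : (0 : ℝ) < (b : ℝ) * c + 1 := by positivity
  have fin : (L : ℝ) * ((b : ℝ) * c + 1) ^ N ≤ (s : ℝ) ^ b := by
    rw [← Real.log_le_log_iff (by positivity) (by positivity), Real.log_mul hL0'.ne'
      (by positivity), Real.log_pow, Real.log_pow]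
    exact key
  exact_mod_cast fin

end N4

open N4 in
theorem grow_num {δ : ℝ} (hδ : 0 < δ) : ∃ κ : ℝ, 0 < κ ∧ κ < 1 / 20 ∧ ∃ A : ℕ,
    ∀ n a b : ℕ, A ≤ a → (n : ℝ) + 3 ≤ (a : ℝ) ^ κ → (1 + δ) * a ≤ b →
      (b : ℝ) ≤ (a : ℝ) ^ (1 + 2 * κ) → ∃ c h s : ℕ, c + (n + 3) ≤ a ∧ (n + 2) * h ≤ c ∧
        s * b ≤ h ^ (n + 2) ∧ (c : ℝ) + 1 + 4 * (n + 3) ^ 2 ≤ (a : ℝ) ^ (1 - κ) ∧
        ∀ L : ℕ, a.factorial * L ≤ ((b + 1) ^ (n + 2) + a) ^ a →
          L * (b * c + 1) ^ ((n + 3) * (n + 3) + (n + 3)) ≤ s ^ b := by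
  obtain ⟨κ, h0, h1, h2⟩ : ∃ κ : ℝ, 0 < κ ∧ κ < 1 / 20 ∧ 36 * κ ≤ δ := by
    refine ⟨min (1 / 21) (δ / 36), lt_min (by norm_num) (by positivity),
      (min_le_left _ _).trans_lt (by norm_num), ?_⟩
    have := min_le_right (1 / 21 : ℝ) (δ / 36)
    linarith
  refine ⟨κ, h0, h1, ?_⟩
  have e1 : ∀ᶠ t : ℝ in atTop, 6 ≤ t ^ κ := (tendsto_rpow_atTop h0).eventually_ge_atTop 6
  have e2 : ∀ᶠ t : ℝ in atTop, 6 / κ ≤ t ^ (1 - 2 * κ) :=
    (tendsto_rpow_atTop (by linarith : 0 < 1 - 2 * κ)).eventually_ge_atTop _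
  have e3 : ∀ᶠ t : ℝ in atTop, 2 / κ ≤ Real.log t := Real.tendsto_log_atTop.eventually_ge_atTop _
  obtain ⟨x₀, hx₀⟩ := eventually_atTop.mp ((e1.and e2).and (e3.and (eventually_ge_atTop (1 : ℝ))))
  refine ⟨⌈x₀⌉₊, ?_⟩
  intro n a b ha hm hb1 hb2
  obtain ⟨⟨f1, f2⟩, f3, f4⟩ := hx₀ (a : ℝ) ((Nat.le_ceil x₀).trans (by exact_mod_cast ha))
  have ha0 : (0 : ℝ) < a := by linarith
  have hb0 : (1 : ℝ) ≤ b := by
    have := mul_pos hδ ha0
    linarith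
  have hb : 1 ≤ b := by exact_mod_cast hb0
  have f3' : 2 ≤ κ * Real.log a := by
    rw [div_le_iff₀ h0] at f3
    linarith
  have f2' : 6 * ((a : ℝ) ^ κ * (a : ℝ) ^ κ) ≤ κ * a := by
    rw [div_le_iff₀ h0] at f2
    have k1 : (a : ℝ) = (a : ℝ) ^ (1 - 2 * κ) * ((a : ℝ) ^ κ * (a : ℝ) ^ κ) := by
      rw [← Real.rpow_add ha0, ← Real.rpow_add ha0]
      conv_lhs => rw [← Real.rpow_one (a : ℝ)]
      congr 1
      ring
    have k2 : 0 ≤ (a : ℝ) ^ κ * (a : ℝ) ^ κ := by positivity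
    have k3 := mul_le_mul_of_nonneg_right f2 k2
    calc 6 * ((a : ℝ) ^ κ * (a : ℝ) ^ κ) ≤
        (a : ℝ) ^ (1 - 2 * κ) * κ * ((a : ℝ) ^ κ * (a : ℝ) ^ κ) := k3
      _ = κ * ((a : ℝ) ^ (1 - 2 * κ) * ((a : ℝ) ^ κ * (a : ℝ) ^ κ)) := by ring
      _ = κ * a := by rw [← k1]
  obtain ⟨c, h, s, r1, r2, r3, r4, r5⟩ := choice h0 h1 n a b f4 f1 hm hb hb2
  refine ⟨c, h, s, by exact_mod_cast r1, r2, r3, r4, ?_⟩
  intro L hL
  rcases Nat.eq_zero_or_pos L with hz | hL0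
  · rw [hz, zero_mul]
    exact Nat.zero_le _
  exact N4.final h0 h1 h2 n f4 f2' f3' hm rfl hb1 hb2 r1 r5 hL0 hL

end Vale.Agent.P181.FR
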