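import Mathlib

/-!
# P181, row T3: the numbers for `b ≥ (1 + δ) a` (helper764)
-/

namespace Vale.Agent.P181.FR

open Filter Topology

namespace N3

theorem ev1 {η : ℝ} (hη : 0 < η) (k : ℝ) : ∀ᶠ x : ℝ in atTop, x ^ (1 - η) + k ≤ x := by
  have h1 : Tendsto (fun x : ℝ => x ^ (-η)) atTop (𝓝 0) := tendsto_rpow_neg_atTop hη
  have h2 : ∀ᶠ x : ℝ in atTop, x ^ (-η) < 1 / 2 := h1.eventually_lt_const (by norm_num)
  filter_upwards [h2, eventually_ge_atTop (1 : ℝ), eventually_ge_atTop (2 * k)] with x h3 h4 h5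
  have h6 : x ^ (1 - η) = x * x ^ (-η) := by
    rw [sub_eq_add_neg, Real.rpow_add (by linarith), Real.rpow_one]
  rw [h6]
  have h7 : x * x ^ (-η) ≤ x * (1 / 2) := mul_le_mul_of_nonneg_left h3.le (by linarith)
  linarith

theorem ev2 {e : ℝ} (he : 0 < e) (k : ℝ) : ∀ᶠ x : ℝ in atTop, k ≤ x ^ e :=
  (tendsto_rpow_atTop he).eventually_ge_atTop k

theorem ev4 (N k : ℝ) : ∀ᶠ x : ℝ in atTop, N * (k + 2 * Real.log x) ≤ x := by
  have h1 : (fun x : ℝ => N * (k + 2 * Real.log x)) =o[atTop] (fun x : ℝ => x) := by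
    refine Asymptotics.IsLittleO.const_mul_left ?_ N
    refine Asymptotics.IsLittleO.add ?_ (Real.isLittleO_log_id_atTop.const_mul_left 2)
    exact Asymptotics.isLittleO_const_id_atTop k
  have h2 := h1.bound (show (0 : ℝ) < 1 by norm_num)
  filter_upwards [h2, eventually_ge_atTop (0 : ℝ)] with x h3 h4
  rw [one_mul, Real.norm_eq_abs, Real.norm_eq_abs, abs_of_nonneg h4] at h3
  exact (le_abs_self _).trans h3

theorem ev5 (k : ℝ) : ∀ᶠ x : ℝ in atTop, k ≤ Real.log x :=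
  Real.tendsto_log_atTop.eventually_ge_atTop k

/-- `log a! ≥ a log a - a` -/
theorem log_fac (a : ℕ) (ha : 1 ≤ a) : (a : ℝ) * Real.log a - a ≤ Real.log (a.factorial : ℝ) := by
  have h1 : ((a : ℝ) / Real.exp 1) ^ a ≤ (a.factorial : ℝ) := by
    have h2 : (a : ℝ) ^ a / (a.factorial : ℝ) ≤ Real.exp a := by
      have := Real.pow_div_factorial_le_exp (a : ℝ) (Nat.cast_nonneg a) a
      exact this
    have hf : (0 : ℝ) < a.factorial := by exact_mod_cast a.factorial_pos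
    rw [div_pow, ← Real.exp_nat_mul, mul_one, div_le_iff₀ (Real.exp_pos _)]
    rw [div_le_iff₀ hf] at h2
    linarith
  have ha0 : (0 : ℝ) < a := by exact_mod_cast ha
  have h3 := Real.log_le_log (by positivity) h1
  rw [Real.log_pow, Real.log_div ha0.ne' (Real.exp_pos 1).ne', Real.log_exp] at h3
  linarith

/-- the choice of `c`, `h`, `s` -/
theorem choice (n : ℕ) {η q M : ℝ} {K a b : ℕ} (hq : q = (n : ℝ) + 2) (hq2 : 2 ≤ q)
    (hM : M = 2 * ((2 * q) ^ (n + 2) * K)) (ha0 : (0 : ℝ) < a) (hb1' : 1 ≤ b)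
    (hb2' : (b : ℝ) ≤ K * a) (hK : (1 : ℝ) ≤ K)
    (f1 : (a : ℝ) ^ (1 - η) + (n + 3 : ℝ) ≤ a) (f2 : 4 * q ≤ (a : ℝ) ^ (1 - η))
    (f3 : M ≤ (a : ℝ) ^ ((1 - η) * q - 1)) :
    ∃ c h s : ℕ, (c : ℝ) ≤ (a : ℝ) ^ (1 - η) ∧ (c : ℝ) + (n + 3) ≤ a ∧ (n + 2) * h ≤ c ∧
      s * b ≤ h ^ (n + 2) ∧ (a : ℝ) ^ ((1 - η) * q - 1) / M ≤ s := by
  obtain ⟨u, hu⟩ : ∃ u : ℝ, u = (a : ℝ) ^ (1 - η) := ⟨_, rfl⟩
  rw [← hu] at f1 f2
  have hu0 : 0 ≤ u := by linarith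
  obtain ⟨c, hc⟩ : ∃ c : ℕ, c = ⌊u⌋₊ := ⟨_, rfl⟩
  have hcu : (c : ℝ) ≤ u := by rw [hc]; exact Nat.floor_le hu0
  have hcu' : u < c + 1 := by rw [hc]; exact Nat.lt_floor_add_one u
  obtain ⟨h, hh⟩ : ∃ h : ℕ, h = c / (n + 2) := ⟨_, rfl⟩
  have hh1 : (n + 2) * h ≤ c := by rw [hh]; exact Nat.mul_div_le c (n + 2)
  have hh2 : c < (n + 2) * h + (n + 2) := by
    rw [hh]
    have := Nat.lt_mul_div_succ c (show 0 < n + 2 by omega)
    linarith
  have hh3 : u / (2 * q) ≤ h := by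
    rw [div_le_iff₀ (by linarith)]
    have h2 : (c : ℝ) + 1 ≤ q * h + q := by
      rw [hq]
      exact_mod_cast hh2
    linarith
  obtain ⟨s, hs⟩ : ∃ s : ℕ, s = h ^ (n + 2) / b := ⟨_, rfl⟩
  have hs1 : s * b ≤ h ^ (n + 2) := by rw [hs]; exact Nat.div_mul_le_self _ _
  have hs2 : h ^ (n + 2) < b * (s + 1) := by
    rw [hs]
    have := Nat.lt_mul_div_succ (h ^ (n + 2)) hb1'
    exact this
  obtain ⟨v, hv⟩ : ∃ v : ℝ, v = (a : ℝ) ^ ((1 - η) * q - 1) := ⟨_, rfl⟩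
  rw [← hv] at f3 ⊢
  have hM0 : 0 < M := by rw [hM]; positivity
  have hv1 : (u / (2 * q)) ^ (n + 2) = v * a / (2 * q) ^ (n + 2) := by
    rw [div_pow]
    congr 1
    rw [hu, hv, ← Real.rpow_natCast, ← Real.rpow_mul ha0.le]
    have e : ((a : ℝ)) ^ ((1 - η) * q - 1) * a =
        (a : ℝ) ^ ((1 - η) * q - 1) * (a : ℝ) ^ (1 : ℝ) := by
      rw [Real.rpow_one]
    rw [e, ← Real.rpow_add ha0]
    congr 1
    rw [hq]
    push_cast
    ring
  have hs3 : v / M ≤ s := by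
    have h1 : v * a / (2 * q) ^ (n + 2) ≤ (h : ℝ) ^ (n + 2) := by
      rw [← hv1]
      exact pow_le_pow_left₀ (div_nonneg hu0 (by linarith)) hh3 _
    have h2 : (h : ℝ) ^ (n + 2) ≤ b * (s + 1) := by exact_mod_cast hs2.le
    have hs00 : (0 : ℝ) ≤ (s : ℝ) + 1 := by positivity
    have h3 : v * a / (2 * q) ^ (n + 2) ≤ (K * a) * (s + 1) :=
      (h1.trans h2).trans (mul_le_mul_of_nonneg_right hb2' hs00)
    have h2q : 0 < (2 * q) ^ (n + 2) := by positivity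
    rw [div_le_iff₀ h2q] at h3
    have h4 : v ≤ K * (s + 1) * (2 * q) ^ (n + 2) := by
      refine le_of_mul_le_mul_right ?_ ha0
      calc v * a ≤ K * a * (s + 1) * (2 * q) ^ (n + 2) := h3
        _ = K * (s + 1) * (2 * q) ^ (n + 2) * a := by ring
    have h5 : 2 * v ≤ M * (s + 1) := by
      rw [hM]
      calc 2 * v ≤ 2 * (K * (s + 1) * (2 * q) ^ (n + 2)) := by linarith
        _ = _ := by ring
    rw [div_le_iff₀ hM0]
    linarith
  exact ⟨c, h, s, hcu.trans_eq hu, by linarith, hh1, hs1, hs3⟩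

theorem bound_b (n : ℕ) {q : ℝ} {K a b : ℕ} (hq : q = (n : ℝ) + 2) (ha1 : (1 : ℝ) ≤ a)
    (hb0 : (1 : ℝ) ≤ b) (hb2' : (b : ℝ) ≤ K * a) (hK : (1 : ℝ) ≤ K) :
    Real.log (((b : ℝ) + 1) ^ (n + 2) + a) ≤
      Real.log 2 + q * (Real.log (2 * K) + Real.log a) := by
  have ha0 : (0 : ℝ) < a := by linarith
  have hK0 : (0 : ℝ) < K := by linarith
  have hKa : (a : ℝ) ≤ K * a := by
    have := mul_le_mul_of_nonneg_right hK ha0.le
    linarith
  have h1 : ((b : ℝ) + 1) ≤ 2 * K * a := by linarith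
  have h2 : ((b : ℝ) + 1) ^ (n + 2) ≤ (2 * K * a) ^ (n + 2) :=
    pow_le_pow_left₀ (by positivity) h1 _
  have h3 : (a : ℝ) ≤ (2 * K * a) ^ (n + 2) := by
    have h4 : (1 : ℝ) ≤ 2 * K * a := by linarith
    have h5 : (2 * K * a : ℝ) ^ 1 ≤ (2 * K * a) ^ (n + 2) := pow_le_pow_right₀ h4 (by omega)
    rw [pow_one] at h5
    linarith
  have h6 : ((b : ℝ) + 1) ^ (n + 2) + a ≤ 2 * (2 * K * a) ^ (n + 2) := by linarith
  refine (Real.log_le_log (by positivity) h6).trans (le_of_eq ?_)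
  rw [Real.log_mul (by norm_num) (by positivity), Real.log_pow,
    Real.log_mul (by positivity) ha0.ne', hq]
  push_cast
  ring

theorem bound_bc {K a b c : ℕ} (ha1 : (1 : ℝ) ≤ a) (hca : (c : ℝ) ≤ a)
    (hb2' : (b : ℝ) ≤ K * a) (hK : (1 : ℝ) ≤ K) :
    Real.log ((b : ℝ) * c + 1) ≤ Real.log (2 * K) + 2 * Real.log a := by
  have ha0 : (0 : ℝ) < a := by linarith
  have hK0 : (0 : ℝ) < K := by linarith
  have h1 : (b : ℝ) * c ≤ K * a * a := by
    refine mul_le_mul hb2' hca (by positivity) (by positivity)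
  have h3 : (1 : ℝ) ≤ K * a * a := by
    have h4 : (1 : ℝ) ≤ K * a := by
      have := mul_le_mul hK ha1 zero_le_one hK0.le
      linarith
    have := mul_le_mul h4 ha1 zero_le_one (by positivity)
    linarith
  have h2 : (b : ℝ) * c + 1 ≤ 2 * K * (a * a) := by linarith
  refine (Real.log_le_log (by positivity) h2).trans (le_of_eq ?_)
  rw [Real.log_mul (by positivity) (by positivity), Real.log_mul ha0.ne' ha0.ne']
  ring

/-- the final inequality -/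
theorem final (n : ℕ) {δ η q M : ℝ} {K a b c s N : ℕ} (_hδ : 0 < δ) (hq : q = (n : ℝ) + 2)
    (hηe : (1 + δ) * (η * q) = δ * (q - 1) / 2) (hM0 : 0 < M)
    (ha1 : (1 : ℝ) ≤ a) (hb0 : (1 : ℝ) ≤ b) (hb1 : (1 + δ) * (a : ℝ) ≤ b)
    (hb2' : (b : ℝ) ≤ K * a) (hK : (1 : ℝ) ≤ K) (hca : (c : ℝ) ≤ a)
    (hvM : 1 ≤ (a : ℝ) ^ ((1 - η) * q - 1) / M) (hs3 : (a : ℝ) ^ ((1 - η) * q - 1) / M ≤ s)
    (f4 : (N : ℝ) * (Real.log (2 * K) + 2 * Real.log a) ≤ a)
    (g7 : (Real.log 2 + q * Real.log (2 * K) + 2 + (1 + δ) * Real.log M) ≤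
      δ * (q - 1) / 2 * Real.log a)
    {L : ℕ} (hL0 : 0 < L) (hL : a.factorial * L ≤ ((b + 1) ^ (n + 2) + a) ^ a) :
    L * (b * c + 1) ^ N ≤ s ^ b := by
  have ha0 : (0 : ℝ) < a := by linarith
  have hL0' : (0 : ℝ) < L := by exact_mod_cast hL0
  have hfac : (0 : ℝ) < a.factorial := by exact_mod_cast a.factorial_pos
  have hs0 : (0 : ℝ) < s := by linarith
  have g1 : Real.log (a.factorial : ℝ) + Real.log L ≤
      a * Real.log (((b : ℝ) + 1) ^ (n + 2) + a) := by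
    rw [← Real.log_mul hfac.ne' hL0'.ne', ← Real.log_pow]
    refine Real.log_le_log (by positivity) ?_
    exact_mod_cast hL
  have g2 := bound_b n hq ha1 hb0 hb2' hK
  have g3 := bound_bc ha1 hca hb2' hK
  have g4 : (1 + δ) * a * Real.log ((a : ℝ) ^ ((1 - η) * q - 1) / M) ≤ b * Real.log s := by
    have h1 : 0 ≤ Real.log ((a : ℝ) ^ ((1 - η) * q - 1) / M) := Real.log_nonneg hvM
    have h2 : Real.log ((a : ℝ) ^ ((1 - η) * q - 1) / M) ≤ Real.log s :=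
      Real.log_le_log (by linarith) hs3
    exact mul_le_mul hb1 h2 h1 (by linarith)
  have g5 : Real.log ((a : ℝ) ^ ((1 - η) * q - 1) / M) =
      ((1 - η) * q - 1) * Real.log a - Real.log M := by
    rw [Real.log_div (Real.rpow_pos_of_pos ha0 _).ne' hM0.ne', Real.log_rpow ha0]
  have g6 := log_fac a (by exact_mod_cast ha1)
  have k1 : Real.log L ≤ a * (Real.log 2 + q * (Real.log (2 * K) + Real.log a)) -
      (a * Real.log a - a) := by
    have := mul_le_mul_of_nonneg_left g2 ha0.le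
    linarith
  have k2 : (N : ℝ) * Real.log ((b : ℝ) * c + 1) ≤ a := by
    have := mul_le_mul_of_nonneg_left g3 (Nat.cast_nonneg (α := ℝ) N)
    linarith
  have k3 : a * (Real.log 2 + q * (Real.log (2 * K) + Real.log a)) - (a * Real.log a - a) + a ≤
      (1 + δ) * a * Real.log ((a : ℝ) ^ ((1 - η) * q - 1) / M) := by
    rw [g5]
    have k4 := mul_le_mul_of_nonneg_left g7 ha0.le
    have k5 : (1 + δ) * a * (((1 - η) * q - 1) * Real.log a - Real.log M) =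
        a * ((1 + δ) * (q - 1) * Real.log a) - a * (((1 + δ) * (η * q)) * Real.log a) -
          a * ((1 + δ) * Real.log M) := by ring
    rw [k5, hηe]
    linarith
  have key : Real.log L + N * Real.log ((b : ℝ) * c + 1) ≤ b * Real.log s := by linarith
  have hbc : (0 : ℝ) < (b : ℝ) * c + 1 := by positivity
  have fin : (L : ℝ) * ((b : ℝ) * c + 1) ^ N ≤ (s : ℝ) ^ b := by
    rw [← Real.log_le_log_iff (by positivity) (by positivity), Real.log_mul hL0'.ne'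
      (by positivity), Real.log_pow, Real.log_pow]
    exact key
  exact_mod_cast fin

end N3

open N3 in
theorem numer3 (n : ℕ) {δ : ℝ} (hδ : 0 < δ) (K : ℕ) : ∃ η : ℝ, 0 < η ∧ η < 1 ∧ ∃ A : ℕ,
    ∀ a b : ℕ, A ≤ a → (1 + δ) * a ≤ b → b ≤ K * a → ∃ c h s : ℕ, (c : ℝ) ≤ (a : ℝ) ^ (1 - η) ∧
      c + (n + 3) ≤ a ∧ (n + 2) * h ≤ c ∧ s * b ≤ h ^ (n + 2) ∧
      ∀ L : ℕ, a.factorial * L ≤ ((b + 1) ^ (n + 2) + a) ^ a →
        L * (b * c + 1) ^ ((n + 3) * (n + 3) + (n + 3)) ≤ s ^ b := by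
  obtain ⟨q, hq⟩ : ∃ q : ℝ, q = (n : ℝ) + 2 := ⟨_, rfl⟩
  have hn0 : (0 : ℝ) ≤ n := Nat.cast_nonneg n
  have hq2 : 2 ≤ q := by linarith
  have hq1 : 0 < q - 1 := by linarith
  obtain ⟨η, hη⟩ : ∃ η : ℝ, η = δ * (q - 1) / (2 * q * (1 + δ)) := ⟨_, rfl⟩
  have hη0 : 0 < η := by
    rw [hη]
    positivity
  have hη1 : η < 1 / 2 := by
    rw [hη, div_lt_div_iff₀ (by positivity) (by norm_num)]
    have h1 := mul_pos hδ (by linarith : (0 : ℝ) < q)
    linarith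
  have hηe : (1 + δ) * (η * q) = δ * (q - 1) / 2 := by
    rw [hη]
    have : (1 + δ) ≠ 0 := by positivity
    have : q ≠ 0 := by positivity
    field_simp
  have he : 0 < (1 - η) * q - 1 := by
    have h1 : (1 - η) * 2 ≤ (1 - η) * q := mul_le_mul_of_nonneg_left hq2 (by linarith)
    linarith
  obtain ⟨M, hM⟩ : ∃ M : ℝ, M = 2 * ((2 * q) ^ (n + 2) * K) := ⟨_, rfl⟩
  have hev := (((ev1 hη0 (n + 3 : ℝ)).and (ev2 (by linarith : 0 < 1 - η) (4 * q))).and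
    ((ev2 he M).and (ev4 (((n + 3) * (n + 3) + (n + 3) : ℕ) : ℝ) (Real.log (2 * K))))).and
    ((ev5 ((Real.log 2 + q * Real.log (2 * K) + 2 + (1 + δ) * Real.log M) /
      (δ * (q - 1) / 2))).and (eventually_ge_atTop (1 : ℝ)))
  obtain ⟨x₀, hx₀⟩ := eventually_atTop.mp hev
  refine ⟨η, hη0, by linarith, ⌈x₀⌉₊, ?_⟩
  intro a b ha hb1 hb2
  obtain ⟨⟨⟨f1, f2⟩, f3, f4⟩, f5, f6⟩ := hx₀ (a : ℝ) ((Nat.le_ceil x₀).trans (by exact_mod_cast ha))
  have ha0 : (0 : ℝ) < a := by linarith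
  have ha1 : 1 ≤ a := by exact_mod_cast f6
  have hb2' : (b : ℝ) ≤ K * a := by exact_mod_cast hb2
  have hb0 : (1 : ℝ) ≤ b := by
    have := mul_pos hδ ha0
    linarith
  have hb1' : 1 ≤ b := by exact_mod_cast hb0
  have hK : (1 : ℝ) ≤ K := by
    have : K ≠ 0 := by
      rintro rfl
      omega
    exact_mod_cast Nat.one_le_iff_ne_zero.mpr this
  have hM0 : 0 < M := by rw [hM]; positivity
  obtain ⟨c, h, s, r1, r2, r3, r4, r5⟩ := choice n hq hq2 hM ha0 hb1' hb2' hK f1 f2 f3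
  refine ⟨c, h, s, r1, by exact_mod_cast r2, r3, r4, ?_⟩
  intro L hL
  rcases Nat.eq_zero_or_pos L with h0 | hL0
  · rw [h0, zero_mul]
    exact Nat.zero_le _
  have g7 : (Real.log 2 + q * Real.log (2 * K) + 2 + (1 + δ) * Real.log M) ≤
      δ * (q - 1) / 2 * Real.log a := by
    have hd : 0 < δ * (q - 1) / 2 := by positivity
    rw [div_le_iff₀ hd] at f5
    linarith
  exact N3.final n hδ hq hηe hM0 f6 hb0 hb1 hb2' hK (by linarith)
    (by rw [le_div_iff₀ hM0, one_mul]; exact f3) r5 f4 g7 hL0 hL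

end Vale.Agent.P181.FR
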